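import Vale.Agent.P335.Defs
import Vale.Agent.P335.Chain

theorem Vale.Agent.Results.P335.A_full.result :
    (∀ (n : ℕ), 4 ≤ n → ∀ d : Fin n → ℕ, Nonempty (Vale.Agent.P335.Omega d) →
      Vale.Agent.P335.mixingTime d ≤ ((n ^ 6 : ℕ) : ℕ∞)) ∧
    ∃ p : Polynomial ℕ, ∀ (n : ℕ), 4 ≤ n → ∀ d : Fin n → ℕ, Nonempty (Vale.Agent.P335.Omega d) →
      Vale.Agent.P335.mixingTime d ≤ ((p.eval n : ℕ) : ℕ∞) :=
  ⟨fun _ hn d _ => Vale.Agent.P335.mixingTime_le hn d,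
    Polynomial.X ^ 6, fun _ hn d _ => by simpa using Vale.Agent.P335.mixingTime_le hn d⟩
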